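import Mathlib

open Filter Topology TopologicalSpace Set

namespace Vale.Agent.Lib.P129

variable {𝕜 : Type*} [RCLike 𝕜] {X : Type*} [NormedAddCommGroup X] [NormedSpace 𝕜 X]
variable {D : Type*} [NormedAddCommGroup D] [NormedSpace 𝕜 D]

/-- A finite set of vectors of the unit ball 2-norms a finite-dimensional subspace of the dual. -/
lemma exists_norming (ev : D →L[𝕜] StrongDual 𝕜 X) (hev : ∀ f, ‖ev f‖ = ‖f‖)
    (E : Submodule 𝕜 D) [FiniteDimensional 𝕜 E] :
    ∃ A : Finset X, (∀ a ∈ A, ‖a‖ ≤ 1) ∧ ∀ e ∈ E, e ≠ 0 → ∃ a ∈ A, ‖e‖ ≤ 2 * ‖ev e a‖ := by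
  classical
  haveI : ProperSpace E := FiniteDimensional.proper_rclike 𝕜 E
  have hK : IsCompact (Metric.sphere (0 : E) 1) := isCompact_sphere _ _
  have h1 : ∀ e : E, e ∈ Metric.sphere (0 : E) 1 →
      ∃ a : X, ‖a‖ < 1 ∧ (1 / 2 : ℝ) < ‖ev (e : D) a‖ := by
    intro e he
    have hn : ‖ev (e : D)‖ = 1 := by
      rw [hev]
      exact mem_sphere_zero_iff_norm.mp he
    exact (ev (e : D)).exists_lt_apply_of_lt_opNorm (by rw [hn]; norm_num)
  choose! a ha1 ha2 using h1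
  have hopen : ∀ x : X, IsOpen {e' : E | (1 / 2 : ℝ) < ‖ev (e' : D) x‖} := by
    intro x
    apply isOpen_lt continuous_const
    have : Continuous fun e' : E => ev (e' : D) x :=
      ((NormedSpace.inclusionInDoubleDual 𝕜 X x).comp ev).continuous.comp continuous_subtype_val
    exact this.norm
  obtain ⟨t, ht, hcov⟩ := hK.elim_nhds_subcover
    (fun e => {e' : E | (1 / 2 : ℝ) < ‖ev (e' : D) (a e)‖})
    (fun e he => (hopen (a e)).mem_nhds (ha2 e he))
  refine ⟨t.image a, ?_, ?_⟩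
  · intro x hx
    obtain ⟨e, he, rfl⟩ := Finset.mem_image.mp hx
    exact (ha1 e (ht e he)).le
  · intro e he hne
    have hnpos : 0 < ‖e‖ := norm_pos_iff.mpr hne
    let u : E := ((‖e‖⁻¹ : ℝ) : 𝕜) • ⟨e, he⟩
    have h1' : ‖((‖e‖⁻¹ : ℝ) : 𝕜)‖ = ‖e‖⁻¹ := by
      rw [RCLike.norm_ofReal, abs_of_pos (inv_pos.mpr hnpos)]
    have hu : u ∈ Metric.sphere (0 : E) 1 := by
      apply mem_sphere_zero_iff_norm.mpr
      have h2 : ‖u‖ = ‖((‖e‖⁻¹ : ℝ) : 𝕜)‖ * ‖(⟨e, he⟩ : E)‖ := norm_smul _ _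
      rw [h2, h1']
      have h3 : ‖(⟨e, he⟩ : E)‖ = ‖e‖ := rfl
      rw [h3]
      field_simp
    obtain ⟨s, hs, hsu⟩ := mem_iUnion₂.mp (hcov hu)
    refine ⟨a s, Finset.mem_image_of_mem a hs, ?_⟩
    have hsu' : (1 / 2 : ℝ) < ‖ev (u : D) (a s)‖ := hsu
    have : ‖ev (u : D) (a s)‖ = ‖e‖⁻¹ * ‖ev e (a s)‖ := by
      have h2 : ev (u : D) (a s) = ((‖e‖⁻¹ : ℝ) : 𝕜) * ev e (a s) := by
        simp [u]
      rw [h2, norm_mul, h1']
    rw [this] at hsu'
    have h3 : (1 / 2 : ℝ) * ‖e‖ < ‖ev e (a s)‖ := by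
      have := mul_lt_mul_of_pos_right hsu' hnpos
      have h4 : ‖e‖⁻¹ * ‖ev e (a s)‖ * ‖e‖ = ‖ev e (a s)‖ := by field_simp
      linarith
    linarith

/-- Lifting: if the finite set `A` in the unit ball 2-norms `E`, the evaluation at any `x` on `E`
is also the evaluation at a vector of the span of `A` of norm at most twice the norm of the
evaluation. -/
lemma lift_eval (ev : D →L[𝕜] StrongDual 𝕜 X) (A : Finset X) (hA : ∀ a ∈ A, ‖a‖ ≤ 1)
    (E : Submodule 𝕜 D)
    (hnorm : ∀ e ∈ E, e ≠ 0 → ∃ a ∈ A, ‖e‖ ≤ 2 * ‖ev e a‖) (x : X) (M : ℝ) (hM0 : 0 ≤ M)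
    (hM : ∀ e ∈ E, ‖ev e x‖ ≤ M * ‖e‖) :
    ∃ x' ∈ Submodule.span 𝕜 (A : Set X), ‖x'‖ ≤ 2 * M ∧ ∀ e ∈ E, ev e x' = ev e x := by
  classical
  let Ψ : E →ₗ[𝕜] (A → 𝕜) :=
    { toFun := fun e a => ev (e : D) (a : X)
      map_add' := by intro e f; ext a; simp
      map_smul' := by intro c e; ext a; simp }
  have hΨ : ∀ e : E, ‖(e : D)‖ ≤ 2 * ‖Ψ e‖ := by
    intro e
    by_cases h0 : (e : D) = 0
    · rw [h0, norm_zero]; positivity
    · obtain ⟨a, ha, hle⟩ := hnorm e e.2 h0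
      have : ‖ev (e : D) a‖ ≤ ‖Ψ e‖ := norm_le_pi_norm (Ψ e) ⟨a, ha⟩
      linarith
  have hinj : Function.Injective Ψ := by
    rw [← LinearMap.ker_eq_bot, LinearMap.ker_eq_bot']
    intro e he
    have := hΨ e
    rw [he, norm_zero, mul_zero] at this
    have h2 : (e : D) = 0 := norm_le_zero_iff.mp this
    exact Subtype.ext h2
  let eq := LinearEquiv.ofInjective Ψ hinj
  let evx : E →ₗ[𝕜] 𝕜 :=
    { toFun := fun e => ev (e : D) x
      map_add' := by intro e f; simp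
      map_smul' := by intro c e; simp }
  let ψ0 : LinearMap.range Ψ →ₗ[𝕜] 𝕜 := evx ∘ₗ eq.symm.toLinearMap
  have hbd : ∀ v : LinearMap.range Ψ, ‖ψ0 v‖ ≤ (2 * M) * ‖v‖ := by
    intro v
    set e := eq.symm v with he
    have hv : (v : A → 𝕜) = Ψ e := by
      have : eq e = v := by simp [he]
      rw [← this]; rfl
    have h1 : ‖ψ0 v‖ = ‖ev (e : D) x‖ := rfl
    rw [h1, Submodule.coe_norm, hv]
    have h2 := hM e e.2
    have h3 := hΨ e
    have h4 : M * ‖(e : D)‖ ≤ M * (2 * ‖Ψ e‖) :=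
      mul_le_mul_of_nonneg_left h3 hM0
    nlinarith
  let ψ1 : StrongDual 𝕜 (LinearMap.range Ψ) := ψ0.mkContinuous (2 * M) hbd
  obtain ⟨ψ, hψ, hψn⟩ := exists_extension_norm_eq (LinearMap.range Ψ) ψ1
  have hψle : ‖ψ‖ ≤ 2 * M := by
    rw [hψn]
    exact LinearMap.mkContinuous_norm_le ψ0 (by positivity) hbd
  let c : A → 𝕜 := fun a => ψ (Pi.single a 1)
  have hexp : ∀ v : A → 𝕜, ψ v = ∑ a, v a * c a := by
    intro v
    have : v = ∑ a, v a • (Pi.single a (1 : 𝕜) : A → 𝕜) := by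
      ext b
      simp [Finset.sum_apply, Pi.single_apply]
    conv_lhs => rw [this]
    simp [map_sum, c]
  have hsum : ∑ a, ‖c a‖ ≤ ‖ψ‖ := by
    have hph : ∀ a : A, ∃ u : 𝕜, ‖u‖ = 1 ∧ ((‖c a‖ : ℝ) : 𝕜) = u * c a := fun a =>
      RCLike.exists_norm_eq_mul_self (c a)
    choose u hu1 hu2 using hph
    have hunorm : ‖u‖ ≤ 1 :=
      (pi_norm_le_iff_of_nonneg zero_le_one).mpr fun a => (hu1 a).le
    have h1 : ψ u = ((∑ a, ‖c a‖ : ℝ) : 𝕜) := by
      rw [hexp u]
      push_cast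
      exact Finset.sum_congr rfl fun a _ => (hu2 a).symm
    have h2 : ‖ψ u‖ ≤ ‖ψ‖ * ‖u‖ := ψ.le_opNorm u
    have h3 : ‖ψ u‖ = ∑ a, ‖c a‖ := by
      rw [h1, RCLike.norm_ofReal, abs_of_nonneg (Finset.sum_nonneg fun a _ => norm_nonneg _)]
    have h4 : ‖ψ‖ * ‖u‖ ≤ ‖ψ‖ * 1 := mul_le_mul_of_nonneg_left hunorm (norm_nonneg _)
    linarith
  refine ⟨∑ a : A, c a • (a : X), ?_, ?_, ?_⟩
  · exact Submodule.sum_mem _ fun a _ =>
      Submodule.smul_mem _ _ (Submodule.subset_span a.2)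
  · calc ‖∑ a : A, c a • (a : X)‖ ≤ ∑ a : A, ‖c a • (a : X)‖ := norm_sum_le _ _
      _ ≤ ∑ a : A, ‖c a‖ := by
        apply Finset.sum_le_sum
        intro a _
        rw [norm_smul]
        have := hA a a.2
        have h5 := norm_nonneg (c a)
        nlinarith
      _ ≤ ‖ψ‖ := hsum
      _ ≤ 2 * M := hψle
  · intro e he
    have h1 : ev e (∑ a : A, c a • (a : X)) = ∑ a : A, (Ψ ⟨e, he⟩) a * c a := by
      rw [map_sum]
      refine Finset.sum_congr rfl fun a _ => ?_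
      rw [map_smul, smul_eq_mul, mul_comm]
      rfl
    rw [h1, ← hexp]
    have h2 : Ψ ⟨e, he⟩ = ((eq ⟨e, he⟩ : LinearMap.range Ψ) : A → 𝕜) := rfl
    rw [h2, hψ]
    change ψ0 (eq ⟨e, he⟩) = ev e x
    simp [ψ0, evx]

/-- Auxiliary state of the construction. -/
structure St (𝕜 : Type*) [RCLike 𝕜] (X : Type*) [NormedAddCommGroup X] [NormedSpace 𝕜 X]
    (D : Type*) [NormedAddCommGroup D] [NormedSpace 𝕜 D] (ev : D →L[𝕜] StrongDual 𝕜 X) where
  A : Finset X
  E : Submodule 𝕜 D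
  hA : ∀ a ∈ A, ‖a‖ ≤ 1
  hfd : FiniteDimensional 𝕜 E
  hnorm : ∀ e ∈ E, e ≠ 0 → ∃ a ∈ A, ‖e‖ ≤ 2 * ‖ev e a‖

lemma exists_vanishing (ev : D →L[𝕜] StrongDual 𝕜 X)
    (G : Submodule 𝕜 D) (hG : ¬ FiniteDimensional 𝕜 G)
    (C : Finset X) : ∃ g ∈ G, g ≠ 0 ∧ ∀ c ∈ C, ev g c = 0 := by
  classical
  let Φ : G →ₗ[𝕜] (C → 𝕜) :=
    { toFun := fun g c => ev (g : D) (c : X)
      map_add' := by intro e f; ext a; simp
      map_smul' := by intro c e; ext a; simp }
  obtain ⟨g, hg⟩ : ∃ g : G, g ≠ 0 ∧ Φ g = 0 := by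
    by_contra hcon
    apply hG
    have hinj : Function.Injective Φ := by
      rw [← LinearMap.ker_eq_bot, LinearMap.ker_eq_bot']
      intro g hg
      by_contra hne
      exact hcon ⟨g, hne, hg⟩
    exact FiniteDimensional.of_injective Φ hinj
  refine ⟨g, g.2, fun h => hg.1 (Subtype.ext h), ?_⟩
  intro c hc
  exact congrFun hg.2 ⟨c, hc⟩

lemma exists_step (ev : D →L[𝕜] StrongDual 𝕜 X) (hev : ∀ f, ‖ev f‖ = ‖f‖)
    (G : Submodule 𝕜 D) (hG : ¬ FiniteDimensional 𝕜 G)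
    (st : St 𝕜 X D ev) (F : Finset X) :
    ∃ (g : D) (st' : St 𝕜 X D ev), g ∈ G ∧ g ≠ 0 ∧ (∀ a ∈ st.A, ev g a = 0) ∧
      (∀ d ∈ F, ev g d = 0) ∧ st.A ⊆ st'.A ∧ st'.E = st.E ⊔ Submodule.span 𝕜 {g} := by
  classical
  obtain ⟨g, hgG, hg0, hgC⟩ := exists_vanishing ev G hG (st.A ∪ F)
  haveI := st.hfd
  let E' := st.E ⊔ Submodule.span 𝕜 {g}
  haveI : FiniteDimensional 𝕜 E' := Submodule.finiteDimensional_sup _ _
  obtain ⟨A1, hA1, hn1⟩ := exists_norming ev hev E'
  refine ⟨g, ⟨st.A ∪ A1, E', ?_, inferInstance, ?_⟩, hgG, hg0, ?_, ?_, ?_, rfl⟩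
  · intro a ha
    rcases Finset.mem_union.mp ha with h | h
    · exact st.hA a h
    · exact hA1 a h
  · intro e he hne
    obtain ⟨a, ha, hle⟩ := hn1 e he hne
    exact ⟨a, Finset.mem_union_right _ ha, hle⟩
  · intro a ha
    exact hgC a (Finset.mem_union_left _ ha)
  · intro d hd
    exact hgC d (Finset.mem_union_right _ hd)
  · exact Finset.subset_union_left

/-- The main sequence. -/
lemma exists_seq (ev : D →L[𝕜] StrongDual 𝕜 X) (hev : ∀ f, ‖ev f‖ = ‖f‖)
    (G : Submodule 𝕜 D) (hG : ¬ FiniteDimensional 𝕜 G)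
    (d : ℕ → X) :
    ∃ (s : ℕ → St 𝕜 X D ev) (g : ℕ → D), (s 0).E = ⊥ ∧ ∀ n, g n ∈ G ∧ g n ≠ 0 ∧
      (∀ a ∈ (s n).A, ev (g n) a = 0) ∧ (∀ l ≤ n, ev (g n) (d l) = 0) ∧ (s n).A ⊆ (s (n + 1)).A ∧
      (s (n + 1)).E = (s n).E ⊔ Submodule.span 𝕜 {g n} := by
  classical
  let F : ℕ → Finset X := fun n => (Finset.range (n + 1)).image d
  choose gf sf h using fun (n : ℕ) (st : St 𝕜 X D ev) => exists_step ev hev G hG st (F n)
  let s0 : St 𝕜 X D ev := ⟨∅, ⊥, by simp, inferInstance, by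
    intro e he hne
    exact absurd ((Submodule.mem_bot 𝕜).mp he) hne⟩
  let s : ℕ → St 𝕜 X D ev := fun n => Nat.rec s0 (fun n st => sf n st) n
  refine ⟨s, fun n => gf n (s n), rfl, fun n => ?_⟩
  obtain ⟨h1, h2, h3, h4, h5, h6⟩ := h n (s n)
  refine ⟨h1, h2, h3, ?_, h5, h6⟩
  intro l hl
  exact h4 _ (Finset.mem_image_of_mem d (Finset.mem_range.mpr (Nat.lt_succ_of_le hl)))

/-- Core statement: a separable seminorm from an infinite-dimensional subspace of the dual gives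
a separable infinite-dimensional quotient. -/
theorem exists_quotient_core [CompleteSpace X] (ev : D →L[𝕜] StrongDual 𝕜 X)
    (hev : ∀ f, ‖ev f‖ = ‖f‖)
    (G : Submodule 𝕜 D) (hG : ¬ FiniteDimensional 𝕜 G) (d : ℕ → X)
    (hd : ∀ x : X, ∀ ε : ℝ, 0 < ε → ∃ l, ∀ g ∈ G, ‖ev g (x - d l)‖ ≤ ε * ‖g‖) :
    ∃ M : Submodule 𝕜 X, IsClosed (M : Set X) ∧ SeparableSpace (X ⧸ M) ∧
      ¬ FiniteDimensional 𝕜 (X ⧸ M) := by
  classical
  obtain ⟨s, g, hs0, hg⟩ := exists_seq ev hev G hG d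
  have hev_le : ∀ (f : D) (x : X), ‖ev f x‖ ≤ ‖f‖ * ‖x‖ := by
    intro f x
    have := (ev f).le_opNorm x
    rwa [hev] at this
  have hAmono : ∀ {m n : ℕ}, m ≤ n → (s m).A ⊆ (s n).A := by
    intro m n hmn
    induction hmn with
    | refl => exact Finset.Subset.refl _
    | step _ ih => exact ih.trans (hg _).2.2.2.2.1
  have hEmono : ∀ {m n : ℕ}, m ≤ n → (s m).E ≤ (s n).E := by
    intro m n hmn
    induction hmn with
    | refl => exact le_rfl
    | step _ ih =>
      refine ih.trans ?_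
      rw [(hg _).2.2.2.2.2]
      exact le_sup_left
  let tail : ℕ → Submodule 𝕜 D := fun n => Submodule.span 𝕜 (g '' Ici n)
  have ht_A : ∀ n, ∀ t ∈ tail n, ∀ a ∈ (s n).A, ev t a = 0 := by
    intro n t ht a ha
    induction ht using Submodule.span_induction with
    | mem x hx =>
      obtain ⟨m, hm, rfl⟩ := hx
      exact (hg m).2.2.1 a (hAmono hm ha)
    | zero => simp
    | add x y _ _ hx hy => simp [hx, hy]
    | smul c x _ hx => simp [hx]
  have ht_span : ∀ n, ∀ t ∈ tail n, ∀ y ∈ Submodule.span 𝕜 ((s n).A : Set X), ev t y = 0 := by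
    intro n t ht y hy
    induction hy using Submodule.span_induction with
    | mem x hx => exact ht_A n t ht x hx
    | zero => simp
    | add x y _ _ hx hy => simp [hx, hy]
    | smul c x _ hx => simp [hx]
  have ht_d : ∀ n, ∀ t ∈ tail n, ∀ l, l < n → ev t (d l) = 0 := by
    intro n t ht l hl
    induction ht using Submodule.span_induction with
    | mem x hx =>
      obtain ⟨m, hm, rfl⟩ := hx
      exact (hg m).2.2.2.1 l (le_trans hl.le hm)
    | zero => simp
    | add x y _ _ hx hy => simp [hx, hy]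
    | smul c x _ hx => simp [hx]
  have ht_G : ∀ n, tail n ≤ G := by
    intro n
    apply Submodule.span_le.mpr
    rintro _ ⟨m, _, rfl⟩
    exact (hg m).1
  let Eall : Submodule 𝕜 D := ⨆ n, (s n).E
  have hEle : ∀ n, (s n).E ≤ Eall := fun n => le_iSup (fun n => (s n).E) n
  have hdec : ∀ n, Eall ≤ (s n).E ⊔ tail n := by
    intro n
    apply iSup_le
    intro m
    induction m with
    | zero => rw [hs0]; exact bot_le
    | succ m ih =>
      rw [(hg m).2.2.2.2.2]
      apply sup_le ih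
      rw [Submodule.span_le, Set.singleton_subset_iff]
      by_cases hmn : n ≤ m
      · exact (le_sup_right : tail n ≤ (s n).E ⊔ tail n)
          (Submodule.subset_span ⟨m, hmn, rfl⟩)
      · have h1 : m + 1 ≤ n := by omega
        have h2 : g m ∈ (s (m + 1)).E := by
          rw [(hg m).2.2.2.2.2]
          exact (le_sup_right : Submodule.span 𝕜 {g m} ≤ _) (Submodule.mem_span_singleton_self _)
        exact (le_sup_left : (s n).E ≤ (s n).E ⊔ tail n) (hEmono h1 h2)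
  have hbound : ∀ n, ∀ e ∈ (s n).E, ∀ t ∈ tail n, ‖e‖ ≤ 2 * ‖e + t‖ ∧ ‖t‖ ≤ 3 * ‖e + t‖ := by
    intro n e he t ht
    have h1 : ‖e‖ ≤ 2 * ‖e + t‖ := by
      by_cases h0 : e = 0
      · rw [h0, norm_zero]; positivity
      · obtain ⟨a, ha, hle⟩ := (s n).hnorm e he h0
        have h2 : ev (e + t) a = ev e a := by
          rw [map_add, _root_.add_apply, ht_A n t ht a ha, add_zero]
        have h3 : ‖ev (e + t) a‖ ≤ ‖e + t‖ := by
          have h4 := hev_le (e + t) a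
          have h5 := (s n).hA a ha
          have h6 := norm_nonneg (e + t)
          nlinarith
        rw [← h2] at hle
        linarith
    refine ⟨h1, ?_⟩
    have h2 : t = (e + t) - e := by abel
    have h3 : ‖t‖ ≤ ‖e + t‖ + ‖e‖ := by
      calc ‖t‖ = ‖(e + t) - e‖ := by rw [← h2]
        _ ≤ _ := norm_sub_le _ _
    linarith
  -- approximation
  have K1 : ∀ x : X, ∀ δ : ℝ, 0 < δ → ∃ n, ∃ x' ∈ Submodule.span 𝕜 ((s n).A : Set X),
      ∀ e ∈ Eall, ‖ev e (x - x')‖ ≤ δ * ‖e‖ := by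
    intro x δ hδ
    obtain ⟨l, hl⟩ := hd x (δ / 3) (by positivity)
    refine ⟨l + 1, ?_⟩
    obtain ⟨x', hx', -, hx'e⟩ := lift_eval ev (s (l + 1)).A (s (l + 1)).hA (s (l + 1)).E
      (s (l + 1)).hnorm x ‖x‖ (norm_nonneg _) (fun e _ => by
        have := hev_le e x
        linarith [mul_comm ‖x‖ ‖e‖])
    refine ⟨x', hx', ?_⟩
    intro e he
    obtain ⟨e1, he1, t, ht, rfl⟩ := Submodule.mem_sup.mp (hdec (l + 1) he)
    have h1 : ev (e1 + t) (x - x') = ev t (x - d l) := by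
      have h2 : ev e1 (x - x') = 0 := by
        rw [map_sub, hx'e e1 he1, sub_self]
      have h3 : ev t x' = 0 := ht_span _ t ht x' hx'
      have h4 : ev t (d l) = 0 := ht_d _ t ht l (Nat.lt_succ_self l)
      rw [map_add, _root_.add_apply, h2, zero_add, map_sub, map_sub, h3, h4]
    rw [h1]
    have h5 := hl t (ht_G _ ht)
    have h6 := (hbound _ e1 he1 t ht).2
    have h7 : δ / 3 * ‖t‖ ≤ δ / 3 * (3 * ‖e1 + t‖) :=
      mul_le_mul_of_nonneg_left h6 (by positivity)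
    calc _ ≤ δ / 3 * ‖t‖ := h5
      _ ≤ _ := h7
      _ = δ * ‖e1 + t‖ := by ring
  -- lifting on the spans
  have K2 : ∀ n, ∀ x0 ∈ Submodule.span 𝕜 ((s n).A : Set X), ∀ r : ℝ, 0 ≤ r →
      (∀ e ∈ Eall, ‖ev e x0‖ ≤ r * ‖e‖) →
      ∃ x', ‖x'‖ ≤ 2 * r ∧ ∀ e ∈ Eall, ev e x' = ev e x0 := by
    intro n x0 hx0 r hr hb
    obtain ⟨x', hx', hx'n, hx'e⟩ := lift_eval ev (s n).A (s n).hA (s n).E (s n).hnorm x0 r hr
      (fun e he => hb e (hEle n he))
    refine ⟨x', hx'n, ?_⟩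
    intro e he
    obtain ⟨e1, he1, t, ht, rfl⟩ := Submodule.mem_sup.mp (hdec n he)
    rw [map_add, _root_.add_apply, _root_.add_apply, hx'e e1 he1,
      ht_span n t ht x' hx', ht_span n t ht x0 hx0]
  -- one step of the iteration
  have step : ∀ y : X, ∀ δ : ℝ, 0 < δ → (∀ e ∈ Eall, ‖ev e y‖ ≤ δ * ‖e‖) →
      ∃ x', ‖x'‖ ≤ 3 * δ ∧ ∀ e ∈ Eall, ‖ev e (y - x')‖ ≤ (δ / 2) * ‖e‖ := by
    intro y δ hδ hb
    obtain ⟨n, x1, hx1, h1⟩ := K1 y (δ / 2) (by positivity)
    have hb1 : ∀ e ∈ Eall, ‖ev e x1‖ ≤ (3 * δ / 2) * ‖e‖ := by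
      intro e he
      have h2 : ev e x1 = ev e y - ev e (y - x1) := by
        rw [map_sub]; ring
      rw [h2]
      calc _ ≤ ‖ev e y‖ + ‖ev e (y - x1)‖ := norm_sub_le _ _
        _ ≤ δ * ‖e‖ + (δ / 2) * ‖e‖ := add_le_add (hb e he) (h1 e he)
        _ = _ := by ring
    obtain ⟨x', hx'n, hx'e⟩ := K2 n x1 hx1 (3 * δ / 2) (by positivity) hb1
    refine ⟨x', by linarith, ?_⟩
    intro e he
    have h2 : ev e (y - x') = ev e (y - x1) := by
      rw [map_sub, map_sub, hx'e e he]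
    rw [h2]
    exact h1 e he
  -- the quotient
  let M : Submodule 𝕜 X :=
    { carrier := {x | ∀ e ∈ Eall, ev e x = 0}
      add_mem' := by
        intro a b ha hb e he
        rw [map_add, ha e he, hb e he, add_zero]
      zero_mem' := by
        intro e _
        simp
      smul_mem' := by
        intro c a ha e he
        rw [map_smul, ha e he, smul_zero] }
  have hMmem : ∀ x, x ∈ M ↔ ∀ e ∈ Eall, ev e x = 0 := fun x => Iff.rfl
  have hMclosed : IsClosed (M : Set X) := by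
    have : (M : Set X) = ⋂ e ∈ Eall, {x | ev e x = 0} := by
      ext x
      simp [hMmem]
    rw [this]
    exact isClosed_biInter fun e _ => isClosed_eq (ev e).continuous continuous_const
  -- closed range: small evaluation means close to the kernel
  have hclose : ∀ y : X, ∀ δ : ℝ, 0 < δ → (∀ e ∈ Eall, ‖ev e y‖ ≤ δ * ‖e‖) →
      ∃ m ∈ M, ‖y - m‖ ≤ 6 * δ := by
    intro y δ hδ hb
    have step' : ∀ (k : ℕ) (z : X), (∀ e ∈ Eall, ‖ev e z‖ ≤ (δ * (1 / 2) ^ k) * ‖e‖) →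
        ∃ x', ‖x'‖ ≤ 3 * (δ * (1 / 2) ^ k) ∧
          ∀ e ∈ Eall, ‖ev e (z - x')‖ ≤ (δ * (1 / 2) ^ (k + 1)) * ‖e‖ := by
      intro k z hz
      obtain ⟨x', h1, h2⟩ := step z (δ * (1 / 2) ^ k) (by positivity) hz
      refine ⟨x', h1, ?_⟩
      intro e he
      have h3 := h2 e he
      have h4 : δ * (1 / 2) ^ k / 2 = δ * (1 / 2) ^ (k + 1) := by
        rw [pow_succ]; ring
      rwa [h4] at h3
    choose! f hf1 hf2 using step'
    let yy : ℕ → X := fun k => Nat.rec y (fun k z => z - f k z) k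
    have hyy : ∀ k, ∀ e ∈ Eall, ‖ev e (yy k)‖ ≤ (δ * (1 / 2) ^ k) * ‖e‖ := by
      intro k
      induction k with
      | zero =>
        intro e he
        have h0 := hb e he
        change ‖ev e y‖ ≤ δ * (1 / 2) ^ 0 * ‖e‖
        simpa using h0
      | succ k ih => exact hf2 k (yy k) ih
    have hdist : ∀ k, dist (yy k) (yy (k + 1)) ≤ (3 * δ) * (1 / 2 : ℝ) ^ k := by
      intro k
      have h1 : yy (k + 1) = yy k - f k (yy k) := rfl
      rw [h1, dist_eq_norm]
      have h2 : yy k - (yy k - f k (yy k)) = f k (yy k) := by abel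
      rw [h2]
      have := hf1 k (yy k) (hyy k)
      calc _ ≤ _ := this
        _ = _ := by ring
    have hcauchy : CauchySeq yy := cauchySeq_of_le_geometric (1 / 2) (3 * δ) (by norm_num) hdist
    obtain ⟨m, hm⟩ := cauchySeq_tendsto_of_complete hcauchy
    refine ⟨m, ?_, ?_⟩
    · intro e he
      have h1 : Tendsto (fun k => ‖ev e (yy k)‖) atTop (𝓝 ‖ev e m‖) :=
        (((ev e).continuous.tendsto m).comp hm).norm
      have h2 : Tendsto (fun k : ℕ => (δ * (1 / 2 : ℝ) ^ k) * ‖e‖) atTop (𝓝 0) := by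
        have h3 : Tendsto (fun k : ℕ => (1 / 2 : ℝ) ^ k) atTop (𝓝 0) :=
          tendsto_pow_atTop_nhds_zero_of_lt_one (by norm_num) (by norm_num)
        have h4 := (h3.const_mul δ).mul_const ‖e‖
        simpa using h4
      have h3 := le_of_tendsto_of_tendsto' h1 h2 (fun k => hyy k e he)
      exact norm_le_zero_iff.mp h3
    · have h1 := dist_le_of_le_geometric_of_tendsto₀ (1 / 2) (3 * δ) (by norm_num) hdist hm
      have h2 : yy 0 = y := rfl
      rw [h2, dist_eq_norm] at h1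
      calc _ ≤ _ := h1
        _ = _ := by ring
  -- density and separability
  let C : Set X := ⋃ n, ((s n).A : Set X)
  have hC : C.Countable := countable_iUnion fun n => (s n).A.countable_toSet
  let S : Submodule 𝕜 X := Submodule.span 𝕜 C
  have hSsep : IsSeparable (S : Set X) := (hC.isSeparable).span
  have hsub : ∀ n, Submodule.span 𝕜 ((s n).A : Set X) ≤ S := fun n =>
    Submodule.span_mono (subset_iUnion (fun n => ((s n).A : Set X)) n)
  have hdense : ∀ x : X, ∀ ε : ℝ, 0 < ε → ∃ x' ∈ S, ∃ m ∈ M, ‖x - x' - m‖ ≤ ε := by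
    intro x ε hε
    obtain ⟨n, x', hx', h1⟩ := K1 x (ε / 6) (by positivity)
    obtain ⟨m, hm, h2⟩ := hclose (x - x') (ε / 6) (by positivity) h1
    exact ⟨x', hsub n hx', m, hm, by linarith⟩
  have hQcont : Continuous M.mkQ := continuous_quot_mk
  have hsepQ : SeparableSpace (X ⧸ M) := by
    have h1 : IsSeparable (M.mkQ '' (S : Set X)) := hSsep.image hQcont
    have h2 : (univ : Set (X ⧸ M)) ⊆ closure (M.mkQ '' (S : Set X)) := by
      intro q _
      obtain ⟨x, rfl⟩ := M.mkQ_surjective q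
      have h3 : x ∈ closure (M.mkQ ⁻¹' (M.mkQ '' (S : Set X))) := by
        rw [Metric.mem_closure_iff]
        intro ε hε
        obtain ⟨x', hx', m, hm, h4⟩ := hdense x (ε / 2) (by positivity)
        refine ⟨x' + m, ?_, ?_⟩
        · refine ⟨x', hx', ?_⟩
          have h5 : M.mkQ m = 0 := by simpa using hm
          rw [map_add, h5, add_zero]
        · rw [dist_eq_norm]
          have h6 : x - (x' + m) = x - x' - m := by abel
          rw [h6]
          linarith
      exact map_mem_closure hQcont h3 (fun z hz => hz)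
    have h3 : IsSeparable (univ : Set (X ⧸ M)) := (h1.closure).mono h2
    exact isSeparable_univ_iff.mp h3
  refine ⟨M, hMclosed, hsepQ, ?_⟩
  -- infinite dimensionality
  intro hfin
  haveI : FiniteDimensional 𝕜 (Module.Dual 𝕜 (X ⧸ M)) := inferInstance
  let Φ : Eall →ₗ[𝕜] Module.Dual 𝕜 (X ⧸ M) :=
    { toFun := fun e => M.liftQ ((ev (e : D)).toLinearMap) (fun x hx => hx e e.2)
      map_add' := by
        intro e f
        ext x
        change ev ((e + f : Eall) : D) x = ev (e : D) x + ev (f : D) x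
        simp
      map_smul' := by
        intro c e
        ext x
        change ev ((c • e : Eall) : D) x = c * ev (e : D) x
        simp }
  have hΦ : Function.Injective Φ := by
    rw [← LinearMap.ker_eq_bot, LinearMap.ker_eq_bot']
    intro e he
    have h1 : ev (e : D) = 0 := by
      ext x
      have h0 := congrArg (fun φ : Module.Dual 𝕜 (X ⧸ M) => φ (M.mkQ x)) he
      exact h0
    have h2 : ‖(e : D)‖ = 0 := by
      rw [← hev, h1, norm_zero]
    exact Subtype.ext (norm_eq_zero.mp h2)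
  haveI hEfin : FiniteDimensional 𝕜 Eall := FiniteDimensional.of_injective Φ hΦ
  have hrank : ∀ n, n ≤ Module.finrank 𝕜 (s n).E := by
    intro n
    induction n with
    | zero => exact Nat.zero_le _
    | succ n ih =>
      haveI := (s (n + 1)).hfd
      have hlt : (s n).E < (s (n + 1)).E := by
        refine lt_of_le_of_ne (hEmono (Nat.le_succ n)) ?_
        intro heq
        have h2 : g n ∈ (s (n + 1)).E := by
          rw [(hg n).2.2.2.2.2]
          exact (le_sup_right : Submodule.span 𝕜 {g n} ≤ _) (Submodule.mem_span_singleton_self _)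
        rw [← heq] at h2
        obtain ⟨a, ha, hle⟩ := (s n).hnorm (g n) h2 (hg n).2.1
        rw [(hg n).2.2.1 a ha, norm_zero, mul_zero] at hle
        exact (hg n).2.1 (norm_le_zero_iff.mp hle)
      have := Submodule.finrank_lt_finrank_of_lt hlt
      omega
  have h1 := hrank (Module.finrank 𝕜 Eall + 1)
  have h2 : Module.finrank 𝕜 (s (Module.finrank 𝕜 Eall + 1)).E ≤ Module.finrank 𝕜 Eall :=
    Submodule.finrank_mono (hEle _)
  omega

/-- The converse: the annihilator of the kernel of a separable quotient is such a subspace. -/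
theorem exists_subspace_core [CompleteSpace X] (ev : D →L[𝕜] StrongDual 𝕜 X)
    (hev : ∀ f, ‖ev f‖ = ‖f‖) (hsurj : Function.Surjective ev)
    (M : Submodule 𝕜 X) (hM : IsClosed (M : Set X)) (hsep : SeparableSpace (X ⧸ M))
    (hinf : ¬ FiniteDimensional 𝕜 (X ⧸ M)) :
    ∃ G : Submodule 𝕜 D, ¬ FiniteDimensional 𝕜 G ∧ ∃ d : ℕ → X, ∀ x : X, ∀ ε : ℝ, 0 < ε →
      ∃ l, ∀ g ∈ G, ‖ev g (x - d l)‖ ≤ ε * ‖g‖ := by
  classical
  have hev_le : ∀ (f : D) (x : X), ‖ev f x‖ ≤ ‖f‖ * ‖x‖ := by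
    intro f x
    have := (ev f).le_opNorm x
    rwa [hev] at this
  let G : Submodule 𝕜 D :=
    { carrier := {f | ∀ m ∈ M, ev f m = 0}
      add_mem' := by
        intro a b ha hb m hm
        simp [ha m hm, hb m hm]
      zero_mem' := by
        intro m _
        simp
      smul_mem' := by
        intro c a ha m hm
        simp [ha m hm] }
  have hGmem : ∀ f, f ∈ G ↔ ∀ m ∈ M, ev f m = 0 := fun f => Iff.rfl
  refine ⟨G, ?_, ?_⟩
  · intro hfin
    apply hinf
    let Φ : (X ⧸ M) →ₗ[𝕜] Module.Dual 𝕜 G :=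
      M.liftQ
        { toFun := fun x =>
            { toFun := fun g => ev (g : D) x
              map_add' := by intro e f; simp
              map_smul' := by intro c e; simp }
          map_add' := by intro a b; ext g; simp
          map_smul' := by intro c a; ext g; simp }
        (by
          intro x hx
          ext g
          exact g.2 x hx)
    have hΦ : Function.Injective Φ := by
      rw [← LinearMap.ker_eq_bot, LinearMap.ker_eq_bot']
      intro q hq
      obtain ⟨x, rfl⟩ := M.mkQ_surjective q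
      by_contra hne
      have hx : x ∉ M := by
        intro hx
        exact hne ((Submodule.Quotient.mk_eq_zero M).mpr hx)
      haveI : IsClosed (M : Set X) := hM
      have hne2 : ‖M.mkQ x‖ ≠ 0 := norm_ne_zero_iff.mpr hne
      obtain ⟨f0, -, hf0⟩ := exists_dual_vector 𝕜 (M.mkQ x) hne2
      have hf0ne : f0 (M.mkQ x) ≠ 0 := by
        rw [hf0]
        exact_mod_cast hne2
      let f : StrongDual 𝕜 X :=
        ⟨f0.toLinearMap ∘ₗ M.mkQ, f0.continuous.comp continuous_quot_mk⟩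
      obtain ⟨f', hf'e⟩ := hsurj f
      have hf' : f' ∈ G := by
        intro m hm
        rw [hf'e]
        change f0 (M.mkQ m) = 0
        have h5 : M.mkQ m = 0 := (Submodule.Quotient.mk_eq_zero M).mpr hm
        rw [h5, map_zero]
      have h6 := congrArg (fun φ : Module.Dual 𝕜 G => φ ⟨f', hf'⟩) hq
      have h7 : ev f' x = 0 := h6
      rw [hf'e] at h7
      exact hf0ne h7
    exact FiniteDimensional.of_injective Φ hΦ
  · have hdense := denseRange_denseSeq (X ⧸ M)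
    choose d hd using fun l => M.mkQ_surjective (denseSeq (X ⧸ M) l)
    refine ⟨d, ?_⟩
    intro x ε hε
    have hopen : IsOpen (M.mkQ '' Metric.ball x ε) :=
      M.isOpenMap_mkQ _ Metric.isOpen_ball
    obtain ⟨l, hl⟩ := hdense.exists_mem_open hopen ⟨M.mkQ x, x, Metric.mem_ball_self hε, rfl⟩
    obtain ⟨x2, hx2, hx2e⟩ := hl
    refine ⟨l, ?_⟩
    intro g hg
    have hmem : x2 - d l ∈ M := by
      have h1 : M.mkQ (x2 - d l) = 0 := by
        rw [map_sub, hx2e, hd l, sub_self]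
      exact (Submodule.Quotient.mk_eq_zero M).mp h1
    have h2 : ev g (x - d l) = ev g (x - x2) := by
      have h3 : x - d l = (x - x2) + (x2 - d l) := by abel
      rw [h3, map_add, hg _ hmem, add_zero]
    rw [h2]
    have h4 : ‖x - x2‖ ≤ ε := by
      have := Metric.mem_ball.mp hx2
      rw [dist_eq_norm, norm_sub_rev] at this
      exact this.le
    have h5 := hev_le g (x - x2)
    have h6 := norm_nonneg g
    nlinarith

/-- A copy in the dual of a space with separable dual gives a separable quotient. -/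
theorem exists_quotient_of_copy [CompleteSpace X] (ev : D →L[𝕜] StrongDual 𝕜 X)
    (hev : ∀ f, ‖ev f‖ = ‖f‖) {Z : Type*} [NormedAddCommGroup Z] [NormedSpace 𝕜 Z]
    (J : Z →L[𝕜] D) (c : ℝ) (hc : 0 < c) (hJ : ∀ z, c * ‖z‖ ≤ ‖J z‖)
    (hZ : ¬ FiniteDimensional 𝕜 Z) [SeparableSpace (StrongDual 𝕜 Z)] :
    ∃ M : Submodule 𝕜 X, IsClosed (M : Set X) ∧ SeparableSpace (X ⧸ M) ∧
      ¬ FiniteDimensional 𝕜 (X ⧸ M) := by
  classical
  have hinj : Function.Injective J := by
    intro a b hab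
    have h1 : J (a - b) = 0 := by rw [map_sub, hab, sub_self]
    have h2 := hJ (a - b)
    rw [h1, norm_zero] at h2
    have h3 : ‖a - b‖ ≤ 0 := by
      by_contra hcon
      push Not at hcon
      have := mul_pos hc hcon
      linarith
    exact sub_eq_zero.mp (norm_le_zero_iff.mp h3)
  let G : Submodule 𝕜 D := LinearMap.range J.toLinearMap
  have hG : ¬ FiniteDimensional 𝕜 G := by
    intro hfin
    apply hZ
    let Φ : Z →ₗ[𝕜] G := J.toLinearMap.rangeRestrict
    have hΦ : Function.Injective Φ := by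
      intro a b hab
      apply hinj
      exact congrArg Subtype.val hab
    exact FiniteDimensional.of_injective Φ hΦ
  let φ : X → StrongDual 𝕜 Z := fun x =>
    (NormedSpace.inclusionInDoubleDual 𝕜 X x).comp (ev.comp J)
  have hφ : ∀ x z, φ x z = ev (J z) x := fun x z => rfl
  have hsepr : IsSeparable (range φ) := IsSeparable.of_separableSpace _
  obtain ⟨t, htsub, htc, htd⟩ := hsepr.exists_countable_dense_subset
  have hne : (insert (φ 0) t).Nonempty := ⟨φ 0, mem_insert _ _⟩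
  obtain ⟨f, hf⟩ := (htc.insert (φ 0)).exists_eq_range hne
  have hfr : ∀ l, ∃ x, φ x = f l := by
    intro l
    have h1 : f l ∈ insert (φ 0) t := by rw [hf]; exact mem_range_self l
    rcases mem_insert_iff.mp h1 with h2 | h2
    · exact ⟨0, h2.symm⟩
    · obtain ⟨x, hx⟩ := htsub h2
      exact ⟨x, hx⟩
  choose d hd using hfr
  refine exists_quotient_core ev hev G hG d ?_
  intro x ε hε
  have h1 : φ x ∈ closure t := htd (mem_range_self x)
  obtain ⟨y, hy, hxy⟩ := Metric.mem_closure_iff.mp h1 (ε * c) (by positivity)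
  have h2 : y ∈ range f := by
    rw [← hf]
    exact mem_insert_of_mem _ hy
  obtain ⟨l, rfl⟩ := h2
  refine ⟨l, ?_⟩
  rintro _ ⟨z, rfl⟩
  have h3 : ev (J z) (x - d l) = (φ x - f l) z := by
    rw [← hd l, map_sub]
    rfl
  change ‖ev (J z) (x - d l)‖ ≤ ε * ‖J z‖
  rw [h3]
  have h4 : ‖(φ x - f l) z‖ ≤ ‖φ x - f l‖ * ‖z‖ := ContinuousLinearMap.le_opNorm _ _
  have h5 : ‖φ x - f l‖ ≤ ε * c := by
    rw [← dist_eq_norm]
    exact hxy.le
  have h6 := hJ z
  have h7 := norm_nonneg z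
  have h8 : ε * (c * ‖z‖) ≤ ε * ‖J z‖ := mul_le_mul_of_nonneg_left h6 hε.le
  have h9 : ‖φ x - f l‖ * ‖z‖ ≤ ε * c * ‖z‖ := mul_le_mul_of_nonneg_right h5 h7
  calc _ ≤ _ := h4
    _ ≤ _ := h9
    _ = ε * (c * ‖z‖) := by ring
    _ ≤ _ := h8

end Vale.Agent.Lib.P129
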